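import Vale.Agent.P243.Defs

namespace Vale.Agent.P243

open MeasureTheory
open scoped ENNReal

/-- The Euclidean plane. -/
abbrev E2 : Type := EuclideanSpace ℝ (Fin 2)

/-- The determinant of three vectors. -/
def det3 (a b u : E3) : ℝ :=
  a 0 * (b 1 * u 2 - b 2 * u 1) - a 1 * (b 0 * u 2 - b 2 * u 0) + a 2 * (b 0 * u 1 - b 1 * u 0)

theorem inner3 (a b : E3) : inner ℝ a b = a 0 * b 0 + a 1 * b 1 + a 2 * b 2 := by
  simp [PiLp.inner_apply, Fin.sum_univ_three, mul_comm]

theorem normsq3 {u : E3} (hu : ‖u‖ = 1) : u 0 ^ 2 + u 1 ^ 2 + u 2 ^ 2 = 1 := by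
  have := inner3 u u
  rw [real_inner_self_eq_norm_sq, hu] at this
  linarith

theorem proj_val {u : E3} (hu : ‖u‖ = 1) (p : E3) :
    ((ℝ ∙ u)ᗮ.orthogonalProjectionOnto p : E3) = p - inner ℝ u p • u := by
  have h1 : ((ℝ ∙ u)ᗮ.orthogonalProjectionOnto p : E3) = (ℝ ∙ u)ᗮ.starProjection p := rfl
  rw [h1, Submodule.starProjection_orthogonal_val, Submodule.starProjection_unit_singleton ℝ hu]

/-- The linear map spanned by two vectors. -/
def lin (a b : E3) : E2 →ₗ[ℝ] E3 where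
  toFun q := q 0 • a + q 1 • b
  map_add' x y := by simp only [PiLp.add_apply, add_smul]; abel
  map_smul' c x := by simp only [PiLp.smul_apply, smul_eq_mul, RingHom.id_apply, smul_add, mul_smul]

theorem lin_apply (a b : E3) (q : E2) : lin a b q = q 0 • a + q 1 • b := rfl

theorem normDet_proj {u : E3} (hu : ‖u‖ = 1) (a b : E3) :
    (((ℝ ∙ u)ᗮ.orthogonalProjectionOnto : E3 →ₗ[ℝ] (ℝ ∙ u)ᗮ).comp (lin a b)).normDet
      = |det3 a b u| := by
  have h := LinearMap.normDet_sq_eq_det_gram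
    (((ℝ ∙ u)ᗮ.orthogonalProjectionOnto : E3 →ₗ[ℝ] (ℝ ∙ u)ᗮ).comp (lin a b))
    (EuclideanSpace.basisFun (Fin 2) ℝ)
  rw [← sq_eq_sq₀ (LinearMap.normDet_nonneg _) (abs_nonneg _), sq_abs]
  have h2 : ∀ p q : E3, inner ℝ ((ℝ ∙ u)ᗮ.orthogonalProjectionOnto p)
      ((ℝ ∙ u)ᗮ.orthogonalProjectionOnto q) = inner ℝ p q - inner ℝ u p * inner ℝ u q := by
    intro p q
    rw [Submodule.coe_inner, proj_val hu, proj_val hu]
    simp only [inner_sub_left, inner_sub_right, real_inner_smul_left, real_inner_smul_right,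
      real_inner_self_eq_norm_sq, hu, real_inner_comm u p]
    ring
  have h0 : lin a b (EuclideanSpace.basisFun (Fin 2) ℝ 0) = a := by simp [lin_apply]
  have h1 : lin a b (EuclideanSpace.basisFun (Fin 2) ℝ 1) = b := by simp [lin_apply]
  rw [Matrix.det_fin_two] at h
  simp only [Matrix.gram_apply, LinearMap.comp_apply, h0, h1, ContinuousLinearMap.coe_coe, h2,
    inner3] at h
  have h3 := normsq3 hu
  simp only [RCLike.ofReal_real_eq_id, id] at h
  rw [h, det3]
  linear_combination (-((a 0 * a 0 + a 1 * a 1 + a 2 * a 2) * (b 0 * b 0 + b 1 * b 1 + b 2 * b 2)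
    - (a 0 * b 0 + a 1 * b 1 + a 2 * b 2) ^ 2)) * h3

theorem area_image {u : E3} (hu : ‖u‖ = 1) (p a b : E3) (s : Set E2) :
    volume ((ℝ ∙ u)ᗮ.orthogonalProjectionOnto '' ((fun q => p + lin a b q) '' s))
      = ENNReal.ofReal |det3 a b u| * volume s := by
  have hu0 : u ≠ 0 := by
    rintro rfl
    simp at hu
  have : Fact (Module.finrank ℝ E3 = 2 + 1) := ⟨by simp⟩
  have hW : Module.finrank ℝ (ℝ ∙ u)ᗮ = Module.finrank ℝ E2 := by
    rw [Submodule.finrank_orthogonal_span_singleton (n := 2) hu0]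
    simp
  have h := LinearMap.euclideanHausdorffMeasure_image_eq_normDet_mul_volume
    (((ℝ ∙ u)ᗮ.orthogonalProjectionOnto : E3 →ₗ[ℝ] (ℝ ∙ u)ᗮ).comp (lin a b)) s
  rw [← hW, InnerProductSpace.euclideanHausdorffMeasure_eq_volume, normDet_proj hu] at h
  rw [← h, ← measure_preimage_add volume ((ℝ ∙ u)ᗮ.orthogonalProjectionOnto p)]
  congr 1
  ext w
  simp only [Set.mem_preimage, Set.mem_image, LinearMap.comp_apply, ContinuousLinearMap.coe_coe,
    exists_exists_and_eq_and, map_add, add_right_inj]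

/-- The closed standard triangle. -/
def triC : Set E2 := {q | 0 ≤ q 0 ∧ 0 ≤ q 1 ∧ q 0 + q 1 ≤ 1}

/-- The standard triangle without its base. -/
def triO : Set E2 := {q | 0 ≤ q 0 ∧ 0 < q 1 ∧ q 0 + q 1 ≤ 1}

theorem lint_tri : ∫⁻ x in Set.Icc (0 : ℝ) 1, ENNReal.ofReal (1 - x) = ENNReal.ofReal (1 / 2) := by
  rw [← ofReal_integral_eq_lintegral_ofReal]
  · congr 1
    rw [integral_Icc_eq_integral_Ioc, ← intervalIntegral.integral_of_le zero_le_one,
      intervalIntegral.integral_sub (by simp) (by simp)]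
    simp
    norm_num
  · exact (by fun_prop : Continuous fun x : ℝ => 1 - x).integrableOn_Icc
  · filter_upwards [ae_restrict_mem measurableSet_Icc] with x hx
    simpa using hx.2

theorem volume_of_sections (S : Set (ℝ × ℝ)) (hS : MeasurableSet S)
    (h : ∀ x : ℝ, volume (Prod.mk x ⁻¹' S)
      = (Set.Icc (0 : ℝ) 1).indicator (fun x => ENNReal.ofReal (1 - x)) x) :
    volume {q : E2 | (q 0, q 1) ∈ S} = ENNReal.ofReal (1 / 2) := by
  have h1 := ((volume_preserving_finTwoArrow ℝ).comp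
    (PiLp.volume_preserving_ofLp (Fin 2))).measure_preimage hS.nullMeasurableSet
  have h2 : {q : E2 | (q 0, q 1) ∈ S}
      = (⇑MeasurableEquiv.finTwoArrow ∘ WithLp.ofLp) ⁻¹' S := rfl
  rw [h2, h1, Measure.volume_eq_prod, Measure.prod_apply hS]
  simp only [h]
  rw [lintegral_indicator measurableSet_Icc, lint_tri]

theorem volume_triC : volume triC = ENNReal.ofReal (1 / 2) := by
  refine volume_of_sections {z : ℝ × ℝ | 0 ≤ z.1 ∧ 0 ≤ z.2 ∧ z.1 + z.2 ≤ 1} (by measurability)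
    fun x => ?_
  by_cases hx : x ∈ Set.Icc (0 : ℝ) 1
  · have : Prod.mk x ⁻¹' {z : ℝ × ℝ | 0 ≤ z.1 ∧ 0 ≤ z.2 ∧ z.1 + z.2 ≤ 1} = Set.Icc 0 (1 - x) := by
      ext y
      simp only [Set.mem_preimage, Set.mem_ofPred_eq, Set.mem_Icc]
      constructor
      · rintro ⟨_, h2, h3⟩; exact ⟨h2, by linarith⟩
      · rintro ⟨h2, h3⟩; exact ⟨hx.1, h2, by linarith⟩
    rw [this, Set.indicator_of_mem hx]
    simp
  · have : Prod.mk x ⁻¹' {z : ℝ × ℝ | 0 ≤ z.1 ∧ 0 ≤ z.2 ∧ z.1 + z.2 ≤ 1} = ∅ := by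
      ext y
      simp only [Set.mem_preimage, Set.mem_ofPred_eq, Set.mem_empty_iff_false, iff_false]
      rintro ⟨h1, h2, h3⟩
      exact hx ⟨h1, by linarith⟩
    rw [this, Set.indicator_of_notMem hx]
    simp

theorem volume_triO : volume triO = ENNReal.ofReal (1 / 2) := by
  refine volume_of_sections {z : ℝ × ℝ | 0 ≤ z.1 ∧ 0 < z.2 ∧ z.1 + z.2 ≤ 1} (by measurability)
    fun x => ?_
  by_cases hx : x ∈ Set.Icc (0 : ℝ) 1
  · have : Prod.mk x ⁻¹' {z : ℝ × ℝ | 0 ≤ z.1 ∧ 0 < z.2 ∧ z.1 + z.2 ≤ 1} = Set.Ioc 0 (1 - x) := by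
      ext y
      simp only [Set.mem_preimage, Set.mem_ofPred_eq, Set.mem_Ioc]
      constructor
      · rintro ⟨_, h2, h3⟩; exact ⟨h2, by linarith⟩
      · rintro ⟨h2, h3⟩; exact ⟨hx.1, h2, by linarith⟩
    rw [this, Set.indicator_of_mem hx]
    simp
  · have : Prod.mk x ⁻¹' {z : ℝ × ℝ | 0 ≤ z.1 ∧ 0 < z.2 ∧ z.1 + z.2 ≤ 1} = ∅ := by
      ext y
      simp only [Set.mem_preimage, Set.mem_ofPred_eq, Set.mem_empty_iff_false, iff_false]
      rintro ⟨h1, h2, h3⟩
      exact hx ⟨h1, by linarith⟩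
    rw [this, Set.indicator_of_notMem hx]
    simp

theorem isCompact_triC : IsCompact triC := by
  refine Metric.isCompact_of_isClosed_isBounded ?_ ?_
  · have h1 : IsClosed {q : E2 | 0 ≤ q 0} := isClosed_le (by fun_prop) (by fun_prop)
    have h2 : IsClosed {q : E2 | 0 ≤ q 1} := isClosed_le (by fun_prop) (by fun_prop)
    have h3 : IsClosed {q : E2 | q 0 + q 1 ≤ 1} := isClosed_le (by fun_prop) (by fun_prop)
    exact h1.inter (h2.inter h3)
  · refine (Metric.isBounded_closedBall (x := (0 : E2)) (r := 1)).subset fun q hq => ?_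
    obtain ⟨h1, h2, h3⟩ := hq
    rw [mem_closedBall_zero_iff, EuclideanSpace.norm_eq, Real.sqrt_le_one, Fin.sum_univ_two]
    simp only [Real.norm_eq_abs, sq_abs]
    nlinarith

/-- The triangle with vertices `p`, `p + a`, `p + b`. -/
def tri (p a b : E3) : Set E3 := (fun q => p + lin a b q) '' triC

theorem isCompact_tri (p a b : E3) : IsCompact (tri p a b) :=
  isCompact_triC.image (continuous_const.add (lin a b).continuous_of_finiteDimensional)

theorem area_tri {u : E3} (hu : ‖u‖ = 1) (p a b : E3) :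
    volume ((ℝ ∙ u)ᗮ.orthogonalProjectionOnto '' tri p a b) = ENNReal.ofReal (|det3 a b u| / 2) := by
  rw [tri, area_image hu, volume_triC, ← ENNReal.ofReal_mul (abs_nonneg _)]
  congr 1
  ring

theorem tri_subset {K : Set E3} (hK : Convex ℝ K) {P Q R : E3} (hP : P ∈ K) (hQ : Q ∈ K)
    (hR : R ∈ K) : tri P (Q - P) (R - P) ⊆ K := by
  rintro _ ⟨q, ⟨h0, h1, h2⟩, rfl⟩
  have := hK.sum_mem (t := Finset.univ) (w := ![1 - q 0 - q 1, q 0, q 1]) (z := ![P, Q, R])
    (fun i _ => by fin_cases i <;> simp <;> linarith) (by simp [Fin.sum_univ_three]; ring)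
    (fun i _ => by fin_cases i <;> simpa)
  convert this using 1
  simp only [Fin.sum_univ_three, lin_apply, Matrix.cons_val_zero, Matrix.cons_val_one,
    Matrix.cons_val]
  module

theorem det3_proj {u : E3} (hu : ‖u‖ = 1) (a p : E3) :
    det3 a ((ℝ ∙ u)ᗮ.orthogonalProjectionOnto p : E3) u = det3 a p u := by
  rw [proj_val hu]
  simp only [det3, PiLp.sub_apply, PiLp.smul_apply, smul_eq_mul]
  ring

theorem quad_le_area {u : E3} (hu : ‖u‖ = 1) {K : Set E3} (hK : Convex ℝ K) {P Q R S : E3}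
    (hP : P ∈ K) (hQ : Q ∈ K) (hR : R ∈ K) (hS : S ∈ K) :
    ENNReal.ofReal (|det3 (Q - P) (R - S) u| / 2) ≤ projArea K u := by
  have hsplit : det3 (Q - P) (R - S) u = det3 (Q - P) (R - P) u - det3 (Q - P) (S - P) u := by
    simp only [det3, PiLp.sub_apply]; ring
  have h1 : ∀ T ∈ K, ENNReal.ofReal (|det3 (Q - P) (T - P) u| / 2) ≤ projArea K u := by
    intro T hT
    rw [← area_tri hu P]
    exact measure_mono (Set.image_mono (tri_subset hK hP hQ hT))
  have key : ∀ R S : E3, R ∈ K → S ∈ K → 0 < det3 (Q - P) (R - P) u →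
      det3 (Q - P) (S - P) u < 0 →
      ENNReal.ofReal (|det3 (Q - P) (R - P) u| / 2 + |det3 (Q - P) (S - P) u| / 2)
        ≤ projArea K u := by
    intro R S hR hS h2 h3
    have hO : volume ((ℝ ∙ u)ᗮ.orthogonalProjectionOnto ''
        ((fun q => P + lin (Q - P) (R - P) q) '' triO))
        = ENNReal.ofReal (|det3 (Q - P) (R - P) u| / 2) := by
      rw [area_image hu, volume_triO, ← ENNReal.ofReal_mul (abs_nonneg _)]
      congr 1
      ring
    rw [ENNReal.ofReal_add (by positivity) (by positivity), ← hO, ← area_tri hu P,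
      ← measure_union _ (((isCompact_tri _ _ _).image
        (ℝ ∙ u)ᗮ.orthogonalProjectionOnto.continuous).measurableSet)]
    · refine measure_mono (Set.union_subset (Set.image_mono ?_)
        (Set.image_mono (tri_subset hK hP hQ hS)))
      refine Set.Subset.trans (Set.image_mono ?_) (tri_subset hK hP hQ hR)
      rintro q ⟨h0, h1, h2⟩
      exact ⟨h0, h1.le, h2⟩
    · rw [Set.disjoint_left]
      rintro _ ⟨_, ⟨q, ⟨-, hq1, -⟩, rfl⟩, rfl⟩ ⟨_, ⟨r, ⟨-, hr1, -⟩, rfl⟩, heq⟩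
      have h4 := congrArg (fun w : (ℝ ∙ u)ᗮ => det3 (Q - P) (w : E3) u) heq
      simp only [det3_proj hu] at h4
      have h5 : ∀ (T : E3) (q : E2), det3 (Q - P) (P + lin (Q - P) (T - P) q) u
          = det3 (Q - P) P u + q 1 * det3 (Q - P) (T - P) u := by
        intro T q
        simp only [det3, lin_apply, PiLp.add_apply, PiLp.smul_apply, smul_eq_mul]
        ring
      rw [h5, h5] at h4
      nlinarith [mul_pos hq1 h2, mul_nonneg hr1 (neg_pos.2 h3).le]
  rw [hsplit]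
  rcases lt_trichotomy (det3 (Q - P) (R - P) u) 0 with h2 | h2 | h2 <;>
  rcases lt_trichotomy (det3 (Q - P) (S - P) u) 0 with h3 | h3 | h3
  all_goals first
    | (refine le_trans (ENNReal.ofReal_le_ofReal ?_) (key R S hR hS h2 h3)
       linarith [abs_sub (det3 (Q - P) (R - P) u) (det3 (Q - P) (S - P) u)])
    | (refine le_trans (ENNReal.ofReal_le_ofReal ?_) (key S R hS hR h3 h2)
       linarith [abs_sub (det3 (Q - P) (R - P) u) (det3 (Q - P) (S - P) u)])
    | (rcases le_total |det3 (Q - P) (R - P) u| |det3 (Q - P) (S - P) u| with h4 | h4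
       · refine le_trans (ENNReal.ofReal_le_ofReal ?_) (h1 S hS)
         have : |det3 (Q - P) (R - P) u - det3 (Q - P) (S - P) u| ≤ |det3 (Q - P) (S - P) u| := by
           rw [abs_le]
           constructor <;> cases abs_cases (det3 (Q - P) (R - P) u) <;>
             cases abs_cases (det3 (Q - P) (S - P) u) <;> linarith
         linarith
       · refine le_trans (ENNReal.ofReal_le_ofReal ?_) (h1 R hR)
         have : |det3 (Q - P) (R - P) u - det3 (Q - P) (S - P) u| ≤ |det3 (Q - P) (R - P) u| := by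
           rw [abs_le]
           constructor <;> cases abs_cases (det3 (Q - P) (R - P) u) <;>
             cases abs_cases (det3 (Q - P) (S - P) u) <;> linarith
         linarith)

theorem mem_cylinder {u : E3} (hu : ‖u‖ = 1) {T : Set E3} {w p : E3} (hw : w ∈ T) (s : ℝ)
    (hp : p = w + s • u) : p ∈ cylinder u ((ℝ ∙ u)ᗮ.orthogonalProjectionOnto '' T) := by
  refine ⟨_, ⟨w, hw, rfl⟩, inner ℝ u w + s, ?_⟩
  rw [proj_val hu, hp]
  module

end Vale.Agent.P243
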