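import Mathlib

namespace Vale.Agent.P243

/-- Half the mesh size. -/
noncomputable def eta : ℝ := 1 / 100000

/-- Midpoints of the cells. -/
noncomputable def mid (i : ℕ) : ℝ := -1 + (2 * i + 1) * eta

/-- Horizontal tilt. -/
noncomputable def al (m : ℝ) : ℝ := (1 + m ^ 2 - eta ^ 2) / 12

/-- Height of the triangular base. -/
noncomputable def tt (m : ℝ) : ℝ := 1 / 2 + 2 / 1000000 + (m ^ 2 + 31 / 30 * m ^ 4) / 144

/-- Membership in the infinite wedge. -/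
def Wedge (m x y z : ℝ) : Prop :=
  (m - eta) * (z - m / 6 * x) ≤ y - al m * x ∧ y - al m * x ≤ (m + eta) * (z - m / 6 * x)

theorem eta_pos : 0 < eta := by unfold eta; norm_num

theorem abs_mid_le {i : ℕ} (hi : i < 100000) : |mid i| ≤ 1 - eta := by
  have h1 : (i : ℝ) + 1 ≤ 100000 := by exact_mod_cast hi
  have h0 : (0 : ℝ) ≤ i := Nat.cast_nonneg i
  rw [abs_le]
  unfold mid eta
  constructor <;> linarith

theorem discrete_ivt (f : ℕ → ℝ) (N : ℕ) (hN : 0 < N) (h0 : 0 ≤ f 0) (h1 : f N ≤ 0) :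
    ∃ i < N, 0 ≤ f i ∧ f (i + 1) ≤ 0 := by
  induction N with
  | zero => omega
  | succ n ih =>
    rcases Nat.eq_zero_or_pos n with rfl | hn
    · exact ⟨0, by omega, h0, h1⟩
    · rcases le_total 0 (f n) with h | h
      · exact ⟨n, by omega, h, h1⟩
      · obtain ⟨i, hi, h2⟩ := ih hn h
        exact ⟨i, by omega, h2⟩

theorem exists_wedge (x y z : ℝ) (h : |y| ≤ z) : ∃ i < 100000, Wedge (mid i) x y z := by
  have h' := abs_le.1 h
  obtain ⟨i, hi, h1, h2⟩ := discrete_ivt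
    (fun i => ((-1 + 2 * i * eta) ^ 2 - 1) / 12 * x + y - (-1 + 2 * i * eta) * z) 100000
    (by norm_num) (by simp; linarith) (by unfold eta; norm_num; linarith)
  refine ⟨i, hi, ?_, ?_⟩
  · unfold mid al
    linarith
  · unfold mid al
    push_cast at h2
    linarith

theorem tt_le {m : ℝ} (hm : m ^ 2 ≤ 1) : tt m ≤ 5142 / 10000 := by
  unfold tt
  have : m ^ 4 ≤ 1 := by nlinarith [sq_nonneg m]
  linarith

theorem tt_ge (m : ℝ) : 1 / 2 ≤ tt m := by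
  unfold tt
  have : 0 ≤ m ^ 4 := by positivity
  nlinarith [sq_nonneg m]

theorem main_poly (m n : ℝ) (hm : m ^ 2 ≤ 1) (hn : n ^ 2 ≤ 1) :
    0 ≤ (m ^ 2 - n ^ 2) ^ 2 + (m ^ 4 + n ^ 4) / 30
      - m * n / 6 * ((m ^ 2 - n ^ 2) * (1 + 31 / 30 * (m ^ 2 + n ^ 2))) := by
  set L := 1 + 31 / 30 * (m ^ 2 + n ^ 2) with hL
  have hL0 : 0 ≤ L := by positivity
  have hL1 : L ≤ 46 / 15 := by linarith
  have hL2 : L ^ 2 ≤ (46 / 15) ^ 2 := by gcongr
  have h1 : 0 ≤ (m * n) ^ 2 := sq_nonneg _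
  have h2 : (m * n) ^ 2 * L ^ 2 ≤ (m * n) ^ 2 * (46 / 15) ^ 2 := by gcongr
  nlinarith [sq_nonneg (m ^ 2 - n ^ 2 - m * n * L / 12), sq_nonneg (m ^ 2 - n ^ 2)]

theorem abs_mul_le' {a b A B : ℝ} (ha : |a| ≤ A) (hb : |b| ≤ B) : |a * b| ≤ A * B := by
  rw [abs_mul]
  exact mul_le_mul ha hb (abs_nonneg _) ((abs_nonneg _).trans ha)

theorem sq_le_one_of_abs {m : ℝ} (hm : |m| ≤ 1) : m ^ 2 ≤ 1 := by
  rw [← sq_abs]; nlinarith [abs_nonneg m]

theorem al_nonneg (m : ℝ) : 0 ≤ al m := by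
  unfold al eta
  nlinarith [sq_nonneg m]

theorem al_le (m : ℝ) : al m ≤ (1 + m ^ 2) / 12 := by
  unfold al
  nlinarith [sq_nonneg eta]

theorem err1 {d n m : ℝ} (hd : |d| ≤ eta) (hn : |n| ≤ 1) (hm : |m| ≤ 1) :
    |d * n * tt m| ≤ eta * 1 * (5142 / 10000) := by
  refine abs_mul_le' (abs_mul_le' hd hn) ?_
  rw [abs_of_nonneg (by linarith [tt_ge m])]
  exact tt_le (sq_le_one_of_abs hm)

theorem err3 (m n τ : ℝ) (hm1 : |m| ≤ 1) (hn1 : |n| ≤ 1) (hτ : |τ - m| ≤ eta) :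
    τ * m * al n * tt m ≤ m ^ 2 * ((1 + n ^ 2) / 12) * tt m + eta * (2 / 12) * (5142 / 10000) := by
  have he := eta_pos
  have h1 : |(τ - m) * m| ≤ eta * 1 := abs_mul_le' hτ hm1
  have h2 : τ * m ≤ m ^ 2 + eta := by nlinarith [le_abs_self ((τ - m) * m)]
  have h3 : τ * m * al n ≤ (m ^ 2 + eta) * al n := by
    have := al_nonneg n
    gcongr
  have h4 : (m ^ 2 + eta) * al n ≤ (m ^ 2 + eta) * ((1 + n ^ 2) / 12) := by
    have := al_le n
    gcongr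
  have h5 : 0 ≤ tt m := by linarith [tt_ge m]
  have h6 := mul_le_mul_of_nonneg_right (h3.trans h4) h5
  have h7 : eta * ((1 + n ^ 2) / 12) * tt m ≤ eta * (2 / 12) * (5142 / 10000) := by
    have := sq_le_one_of_abs hn1
    have := tt_le (sq_le_one_of_abs hm1)
    gcongr
    linarith
  linarith

theorem err5 (m n : ℝ) (hm1 : |m| ≤ 1) (hn1 : |n| ≤ 1) :
    (1 + m ^ 2) * (1 + n ^ 2) / 144 * (tt m + tt n - 1) - eta ^ 2 / 36
      ≤ al m * al n * (tt m + tt n - 1) := by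
  have hm2 := sq_le_one_of_abs hm1
  have hn2 := sq_le_one_of_abs hn1
  have e4 : (1 + m ^ 2) * (1 + n ^ 2) / 144 - eta ^ 2 / 36 ≤ al m * al n := by
    unfold al
    have : 0 ≤ eta ^ 2 := sq_nonneg _
    nlinarith [sq_nonneg (eta ^ 2)]
  have h0 : 0 ≤ tt m + tt n - 1 := by linarith [tt_ge m, tt_ge n]
  have h1 : tt m + tt n - 1 ≤ 1 := by linarith [tt_le hm2, tt_le hn2]
  have e5 := mul_le_mul_of_nonneg_right e4 h0
  have e8 : eta ^ 2 / 36 * (tt m + tt n - 1) ≤ eta ^ 2 / 36 * 1 := by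
    gcongr
  linarith

theorem main2 (m n : ℝ) (hm1 : |m| ≤ 1) (hn1 : |n| ≤ 1) :
    4 / 1000000 ≤ (tt m + tt n - 1) + (1 + m ^ 2) * (1 + n ^ 2) / 144 * (tt m + tt n - 1)
      - m * n * (tt m - tt n) / 6 - m ^ 2 * ((1 + n ^ 2) / 12) * tt m / 6
      - n ^ 2 * ((1 + m ^ 2) / 12) * tt n / 6 := by
  have hm2 := sq_le_one_of_abs hm1
  have hn2 := sq_le_one_of_abs hn1
  have e9 := main_poly m n hm2 hn2
  have hm0 : 0 ≤ m ^ 2 := sq_nonneg m
  have hn0 : 0 ≤ n ^ 2 := sq_nonneg n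
  have e10 : 0 ≤ (1 - m ^ 2) * (1 + n ^ 2) * (m ^ 2 + 31 / 30 * m ^ 4) := by
    have : 0 ≤ 1 - m ^ 2 := by linarith
    positivity
  have e11 : 0 ≤ (1 + m ^ 2) * (1 - n ^ 2) * (n ^ 2 + 31 / 30 * n ^ 4) := by
    have : 0 ≤ 1 - n ^ 2 := by linarith
    positivity
  have e12 : m ^ 2 * n ^ 2 ≤ 1 := by nlinarith
  have key2 : (tt m + tt n - 1) + (1 + m ^ 2) * (1 + n ^ 2) / 144 * (tt m + tt n - 1)
      - m * n * (tt m - tt n) / 6 - m ^ 2 * ((1 + n ^ 2) / 12) * tt m / 6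
      - n ^ 2 * ((1 + m ^ 2) / 12) * tt n / 6
      = ((m ^ 2 - n ^ 2) ^ 2 + (m ^ 4 + n ^ 4) / 30
        - m * n / 6 * ((m ^ 2 - n ^ 2) * (1 + 31 / 30 * (m ^ 2 + n ^ 2)))) / 144
        + ((1 - m ^ 2) * (1 + n ^ 2) * (m ^ 2 + 31 / 30 * m ^ 4)
          + (1 + m ^ 2) * (1 - n ^ 2) * (n ^ 2 + 31 / 30 * n ^ 4)) / 20736
        + 4 / 1000000 * (1 + (1 - m ^ 2 * n ^ 2) / 144) := by
    unfold tt
    ring
  rw [key2]
  linarith

theorem G_nonneg (m n τ σ : ℝ) (hm1 : |m| ≤ 1) (hn1 : |n| ≤ 1)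
    (hτ : |τ - m| ≤ eta) (hσ : |σ - n| ≤ eta) :
    1 + al m * al n ≤ tt m * (1 + al m * al n - τ * (n + m * al n) / 6)
      + tt n * (1 + al m * al n - σ * (n * al m - m) / 6) := by
  have e1 := (abs_le.1 (err1 hτ hn1 hm1)).2
  have e2 := (abs_le.1 (err1 hσ hm1 hn1)).1
  have e3m := err3 m n τ hm1 hn1 hτ
  have e3n := err3 n m σ hn1 hm1 hσ
  have e5 := err5 m n hm1 hn1
  have e6 := main2 m n hm1 hn1
  have key : tt m * (1 + al m * al n - τ * (n + m * al n) / 6)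
      + tt n * (1 + al m * al n - σ * (n * al m - m) / 6) - (1 + al m * al n)
      = (tt m + tt n - 1) + al m * al n * (tt m + tt n - 1) - m * n * (tt m - tt n) / 6
        - (τ - m) * n * tt m / 6 + (σ - n) * m * tt n / 6
        - τ * m * al n * tt m / 6 - σ * n * al m * tt n / 6 := by ring
  have he : eta ^ 2 / 36 + eta * 1 * (5142 / 10000) / 3 + eta * (2 / 12) * (5142 / 10000) / 3
      ≤ 4 / 1000000 := by
    unfold eta; norm_num
  linarith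

theorem coef_pos {m n τ a : ℝ} (hm : |m| ≤ 1) (hn : |n| ≤ 1) (hτ : |τ| ≤ 1) (ha : |a| ≤ 1) :
    τ * (n + m * a) / 6 < 1 := by
  have b1 : |m * a| ≤ 1 * 1 := abs_mul_le' hm ha
  have b2 : |n + m * a| ≤ 2 := (abs_add_le _ _).trans (by linarith)
  have b3 : |τ * (n + m * a)| ≤ 1 * 2 := abs_mul_le' hτ b2
  linarith [le_abs_self (τ * (n + m * a))]

theorem abs_al_le {m : ℝ} (hm : |m| ≤ 1) : |al m| ≤ 1 := by
  rw [abs_of_nonneg (al_nonneg m)]
  linarith [al_le m, sq_le_one_of_abs hm]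

theorem wedge_ratio {m x y z : ℝ} (h : Wedge m x y z) (hz : 0 < z - m / 6 * x) :
    ∃ τ : ℝ, |τ - m| ≤ eta ∧ y - al m * x = τ * (z - m / 6 * x) := by
  have hτ0 : y - al m * x = (y - al m * x) / (z - m / 6 * x) * (z - m / 6 * x) :=
    (div_mul_cancel₀ _ hz.ne').symm
  refine ⟨(y - al m * x) / (z - m / 6 * x), ?_, hτ0⟩
  obtain ⟨a1, a2⟩ := h
  rw [hτ0] at a1 a2
  have b1 := le_of_mul_le_mul_right a1 hz
  have b2 := le_of_mul_le_mul_right a2 hz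
  rw [abs_le]
  constructor <;> linarith

theorem cover_aux {m n x y z : ℝ} (hm : |m| ≤ 1 - eta) (hn : |n| ≤ 1 - eta)
    (hW : Wedge m x y z) (hV : Wedge n (-y) x (1 - z))
    (h1 : tt m < z - m / 6 * x) (h2 : tt n < 1 - z - n / 6 * (-y)) : False := by
  have he := eta_pos
  have hm1 : |m| ≤ 1 := by linarith
  have hn1 : |n| ≤ 1 := by linarith
  obtain ⟨τ, hτ1, hτ0⟩ := wedge_ratio hW (by linarith [tt_ge m])
  obtain ⟨σ, hσ1, hσ0⟩ := wedge_ratio hV (by linarith [tt_ge n])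
  have hG := G_nonneg m n τ σ hm1 hn1 hτ1 hσ1
  have hτ2 : |τ| ≤ 1 := by
    have := abs_add_le (τ - m) m
    rw [sub_add_cancel] at this
    linarith
  have hσ2 : |σ| ≤ 1 := by
    have := abs_add_le (σ - n) n
    rw [sub_add_cancel] at this
    linarith
  have hE : 0 ≤ al m * al n := mul_nonneg (al_nonneg m) (al_nonneg n)
  have hC1 : 0 < 1 + al m * al n - τ * (n + m * al n) / 6 := by
    linarith [coef_pos hm1 hn1 hτ2 (abs_al_le hn1)]
  have hC2 : 0 < 1 + al m * al n - σ * (n * al m - m) / 6 := by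
    have := coef_pos (n := -m) hn1 (by rwa [abs_neg]) hσ2 (abs_al_le hm1)
    have h3 : -m + n * al m = n * al m - m := by ring
    rw [h3] at this
    linarith
  have hid : (z - m / 6 * x) * (1 + al m * al n - τ * (n + m * al n) / 6)
      + (1 - z - n / 6 * (-y)) * (1 + al m * al n - σ * (n * al m - m) / 6)
      = 1 + al m * al n := by
    linear_combination ((n + m * al n) / 6) * hτ0 + ((n * al m - m) / 6) * hσ0
  linarith [mul_lt_mul_of_pos_right h1 hC1, mul_lt_mul_of_pos_right h2 hC2]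

theorem cover_real (x y z : ℝ) (hy : |y| ≤ z) (hx : |x| ≤ 1 - z) :
    (∃ i < 100000, Wedge (mid i) x y z ∧ z - mid i / 6 * x ≤ tt (mid i)) ∨
    (∃ j < 100000, Wedge (mid j) (-y) x (1 - z) ∧ 1 - z - mid j / 6 * (-y) ≤ tt (mid j)) := by
  obtain ⟨i, hi, hW⟩ := exists_wedge x y z hy
  obtain ⟨j, hj, hV⟩ := exists_wedge (-y) x (1 - z) hx
  by_contra hcon
  push Not at hcon
  exact cover_aux (abs_mid_le hi) (abs_mid_le hj) hW hV (hcon.1 i hi hW) (hcon.2 j hj hV)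

theorem inv_sqrt_le {s : ℝ} (hs : 0 ≤ s) : 1 / √(1 + s) ≤ 1 - s / 2 + 3 * s ^ 2 / 8 := by
  have hP : 0 < 1 - s / 2 + 3 * s ^ 2 / 8 := by nlinarith [sq_nonneg (s - 2 / 3)]
  have h1 : 0 < √(1 + s) := Real.sqrt_pos.2 (by linarith)
  rw [div_le_iff₀ h1]
  apply le_of_sq_le_sq _ (by positivity)
  rw [mul_pow, Real.sq_sqrt (by linarith)]
  have : (1 - s / 2 + 3 * s ^ 2 / 8) ^ 2 * (1 + s) = 1 + s ^ 3 * (40 - 15 * s + 9 * s ^ 2) / 64 := by
    ring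
  rw [this]
  have h2 : 0 ≤ 40 - 15 * s + 9 * s ^ 2 := by nlinarith [sq_nonneg (s - 1)]
  have : 0 ≤ s ^ 3 * (40 - 15 * s + 9 * s ^ 2) / 64 := by positivity
  linarith

/-- The antiderivative used for telescoping. -/
noncomputable def Phi (τ : ℝ) : ℝ :=
  2491386 / 10000000 * τ - 16697 / 10000000 * τ ^ 3 / 3 + 65538 / 10000000 * τ ^ 5 / 5

theorem cell_bound (m : ℝ) (hm : m ^ 2 ≤ 1) :
    2 * eta * (tt m ^ 2 / √(1 + (al m ^ 2 + 2 * (m / 6) ^ 2))) ≤ Phi (m + eta) - Phi (m - eta) := by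
  have hs : 0 ≤ al m ^ 2 + 2 * (m / 6) ^ 2 := by positivity
  have h1 := inv_sqrt_le hs
  have h2 : tt m ^ 2 / √(1 + (al m ^ 2 + 2 * (m / 6) ^ 2)) ≤ tt m ^ 2 *
      (1 - (al m ^ 2 + 2 * (m / 6) ^ 2) / 2 + 3 * (al m ^ 2 + 2 * (m / 6) ^ 2) ^ 2 / 8) := by
    rw [div_eq_mul_one_div]
    gcongr
  have h3 : tt m ^ 2 *
      (1 - (al m ^ 2 + 2 * (m / 6) ^ 2) / 2 + 3 * (al m ^ 2 + 2 * (m / 6) ^ 2) ^ 2 / 8)
      ≤ 2491385 / 10000000 - 16697 / 10000000 * m ^ 2 + 65538 / 10000000 * m ^ 4 := by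
    obtain ⟨r, hr⟩ : ∃ r, r = m ^ 2 := ⟨_, rfl⟩
    have hr0 : 0 ≤ r := by rw [hr]; positivity
    have hr1 : r ≤ 1 := by rw [hr]; exact hm
    have e1 : tt m = 1 / 2 + 2 / 1000000 + (r + 31 / 30 * r ^ 2) / 144 := by
      unfold tt; rw [hr]; ring
    have e2 : al m ^ 2 + 2 * (m / 6) ^ 2 = ((1 + r - 1 / 10000000000) / 12) ^ 2 + r / 18 := by
      unfold al eta; rw [hr]; ring
    have e3 : m ^ 4 = r ^ 2 := by rw [hr]; ring
    rw [e1, e2, e3, ← hr]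
    have p2 : 0 ≤ r ^ 2 := by positivity
    have p3 : 0 ≤ r ^ 3 := by positivity
    have p4 : r ^ 4 ≤ r ^ 3 := pow_le_pow_of_le_one hr0 hr1 (by norm_num)
    have p5 : r ^ 5 ≤ r ^ 3 := pow_le_pow_of_le_one hr0 hr1 (by norm_num)
    have p6 : r ^ 6 ≤ r ^ 3 := pow_le_pow_of_le_one hr0 hr1 (by norm_num)
    have p7 : r ^ 7 ≤ r ^ 3 := pow_le_pow_of_le_one hr0 hr1 (by norm_num)
    have p8 : r ^ 8 ≤ r ^ 3 := pow_le_pow_of_le_one hr0 hr1 (by norm_num)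
    ring_nf
    linarith
  have h4 := h2.trans h3
  have h5 : 2 * eta * (2491385 / 10000000 - 16697 / 10000000 * m ^ 2 + 65538 / 10000000 * m ^ 4)
      ≤ Phi (m + eta) - Phi (m - eta) := by
    unfold Phi eta
    have : 0 ≤ m ^ 2 := sq_nonneg m
    ring_nf
    linarith
  have he := eta_pos
  calc _ ≤ 2 * eta * (2491385 / 10000000 - 16697 / 10000000 * m ^ 2
      + 65538 / 10000000 * m ^ 4) := by gcongr
    _ ≤ _ := h5

theorem sum_bound : ∑ i ∈ Finset.range 100000,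
    2 * eta * (tt (mid i) ^ 2 / √(1 + (al (mid i) ^ 2 + 2 * (mid i / 6) ^ 2)))
      ≤ 1 / 2 - 1 / 5000 := by
  have h1 : ∑ i ∈ Finset.range 100000,
      2 * eta * (tt (mid i) ^ 2 / √(1 + (al (mid i) ^ 2 + 2 * (mid i / 6) ^ 2)))
      ≤ ∑ i ∈ Finset.range 100000,
        (Phi (-1 + 2 * ((i + 1 : ℕ) : ℝ) * eta) - Phi (-1 + 2 * (i : ℝ) * eta)) := by
    refine Finset.sum_le_sum fun i hi => ?_
    have hm := abs_mid_le (Finset.mem_range.1 hi)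
    have he := eta_pos
    have hm2 : mid i ^ 2 ≤ 1 := by rw [← sq_abs]; nlinarith [abs_nonneg (mid i)]
    refine (cell_bound _ hm2).trans (le_of_eq ?_)
    congr 2
    · unfold mid; push_cast; ring
    · unfold mid; ring
  refine h1.trans ?_
  rw [Finset.sum_range_sub (fun i : ℕ => Phi (-1 + 2 * (i : ℝ) * eta))]
  unfold Phi eta
  norm_num

end Vale.Agent.P243
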