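import Mathlib

/-!
Definitions for problem P243 (the half-area cylinder covering question of Bang).
Areas are the Lebesgue measure `volume` of the Euclidean plane `(ℝ ∙ u)ᗮ`.
-/

namespace Vale.Agent.P243

open MeasureTheory
open scoped ENNReal

/-- Euclidean three-space. -/
abbrev E3 : Type := EuclideanSpace ℝ (Fin 3)

/-- The cylinder `B + ℝ u` with base `B` inside the plane orthogonal to `u`. -/
def cylinder (u : E3) (B : Set (ℝ ∙ u)ᗮ) : Set E3 :=
  {p | ∃ b ∈ B, ∃ s : ℝ, p = (b : E3) + s • u}

/-- The area of the orthogonal projection of `K` onto the plane orthogonal to `u`. -/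
noncomputable def projArea (K : Set E3) (u : E3) : ℝ≥0∞ :=
  volume ((ℝ ∙ u)ᗮ.orthogonalProjectionOnto '' K)

/-- The smallest area of an orthogonal projection of `K` onto a plane. -/
noncomputable def minProjArea (K : Set E3) : ℝ≥0∞ :=
  ⨅ (u : E3) (_ : ‖u‖ = 1), projArea K u

/-- A regular tetrahedron (all six edges have length `2 √2`). -/
def tetrahedron : Set E3 :=
  convexHull ℝ {!₂[1, 1, 1], !₂[1, -1, -1], !₂[-1, 1, -1], !₂[-1, -1, 1]}

end Vale.Agent.P243
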