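import Vale.Agent.P243.Area
import Vale.Agent.P243.Cover

namespace Vale.Agent.P243

open MeasureTheory
open scoped ENNReal

theorem convex_tet : Convex ℝ tetrahedron := convex_convexHull _ _

theorem isCompact_tet : IsCompact tetrahedron :=
  Set.Finite.isCompact_convexHull ℝ (Set.toFinite _)

theorem v1_mem : (!₂[1, 1, 1] : E3) ∈ tetrahedron := subset_convexHull _ _ (by simp)
theorem v2_mem : (!₂[1, -1, -1] : E3) ∈ tetrahedron := subset_convexHull _ _ (by simp)
theorem v3_mem : (!₂[-1, 1, -1] : E3) ∈ tetrahedron := subset_convexHull _ _ (by simp)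
theorem v4_mem : (!₂[-1, -1, 1] : E3) ∈ tetrahedron := subset_convexHull _ _ (by simp)

theorem tet_ineq {p : E3} (hp : p ∈ tetrahedron) :
    |(p 1 + p 2) / 2| ≤ (1 + p 0) / 2 ∧ |(p 1 - p 2) / 2| ≤ 1 - (1 + p 0) / 2 := by
  have hconv : Convex ℝ {p : E3 | 0 ≤ 1 + p 0 + p 1 + p 2 ∧ 0 ≤ 1 + p 0 - p 1 - p 2 ∧
      0 ≤ 1 - p 0 + p 1 - p 2 ∧ 0 ≤ 1 - p 0 - p 1 + p 2} := by
    rintro x ⟨x1, x2, x3, x4⟩ y ⟨y1, y2, y3, y4⟩ a b ha hb hab
    simp only [Set.mem_ofPred_eq, PiLp.add_apply, PiLp.smul_apply, smul_eq_mul]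
    refine ⟨?_, ?_, ?_, ?_⟩
    · nlinarith [mul_nonneg ha x1, mul_nonneg hb y1]
    · nlinarith [mul_nonneg ha x2, mul_nonneg hb y2]
    · nlinarith [mul_nonneg ha x3, mul_nonneg hb y3]
    · nlinarith [mul_nonneg ha x4, mul_nonneg hb y4]
  have h := convexHull_min (s := {!₂[1, 1, 1], !₂[1, -1, -1], !₂[-1, 1, -1], !₂[-1, -1, 1]})
    (by
      rintro q (rfl | rfl | rfl | rfl) <;> simp <;> norm_num) hconv hp
  obtain ⟨h1, h2, h3, h4⟩ := h
  rw [abs_le, abs_le]
  refine ⟨⟨?_, ?_⟩, ?_, ?_⟩ <;> linarith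

theorem mem_tet_of {p : E3} (h1 : 0 ≤ 1 + p 0 + p 1 + p 2) (h2 : 0 ≤ 1 + p 0 - p 1 - p 2)
    (h3 : 0 ≤ 1 - p 0 + p 1 - p 2) (h4 : 0 ≤ 1 - p 0 - p 1 + p 2) : p ∈ tetrahedron := by
  have := convex_tet.sum_mem (t := Finset.univ)
    (w := ![(1 + p 0 + p 1 + p 2) / 4, (1 + p 0 - p 1 - p 2) / 4, (1 - p 0 + p 1 - p 2) / 4,
      (1 - p 0 - p 1 + p 2) / 4])
    (z := ![!₂[1, 1, 1], !₂[1, -1, -1], !₂[-1, 1, -1], !₂[-1, -1, 1]])
    (fun i _ => by fin_cases i <;> simp <;> linarith) (by simp [Fin.sum_univ_four]; ring)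
    (fun i _ => by
      fin_cases i
      · exact v1_mem
      · exact v2_mem
      · exact v3_mem
      · exact v4_mem)
  convert this using 1
  ext i
  fin_cases i <;> simp [Fin.sum_univ_four] <;> ring

theorem interior_tet : (interior tetrahedron).Nonempty := by
  refine ⟨0, mem_interior.2 ⟨Metric.ball 0 (1 / 3), fun p hp => ?_, Metric.isOpen_ball, by simp⟩⟩
  rw [mem_ball_zero_iff] at hp
  have h : ∀ i, |p i| ≤ 1 / 3 := fun i => (PiLp.norm_apply_le p i).trans hp.le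
  have h0 := abs_le.1 (h 0)
  have h1 := abs_le.1 (h 1)
  have h2 := abs_le.1 (h 2)
  apply mem_tet_of <;> linarith

theorem projArea_lt_top (u : E3) : projArea tetrahedron u < ⊤ :=
  (isCompact_tet.image (ℝ ∙ u)ᗮ.orthogonalProjectionOnto.continuous).measure_lt_top

theorem le_projArea {u : E3} (hu : ‖u‖ = 1) : ENNReal.ofReal (2 * √2) ≤ projArea tetrahedron u := by
  have hfin := (projArea_lt_top u).ne
  have key : ∀ {P Q R S : E3}, P ∈ tetrahedron → Q ∈ tetrahedron → R ∈ tetrahedron →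
      S ∈ tetrahedron → |det3 (Q - P) (R - S) u| / 2 ≤ (projArea tetrahedron u).toReal :=
    fun hP hQ hR hS => (ENNReal.ofReal_le_iff_le_toReal hfin).1 (quad_le_area hu convex_tet hP hQ hR hS)
  rw [ENNReal.ofReal_le_iff_le_toReal hfin]
  set V := (projArea tetrahedron u).toReal
  have conv : ∀ {a b : ℝ}, |a| / 2 ≤ V → a = b → -(2 * V) ≤ b ∧ b ≤ 2 * V := by
    intro a b h hab
    rw [← hab, ← abs_le]
    linarith
  have a1 := conv (b := 8 * u 0) (key v1_mem v2_mem v3_mem v4_mem) (by simp [det3]; ring)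
  have a2 := conv (b := -8 * u 1) (key v1_mem v3_mem v2_mem v4_mem) (by simp [det3]; ring)
  have a3 := conv (b := 8 * u 2) (key v1_mem v4_mem v2_mem v3_mem) (by simp [det3]; ring)
  have b1 := conv (b := 4 * (u 0 + u 1 + u 2)) (key v2_mem v3_mem v4_mem v2_mem)
    (by simp [det3]; ring)
  have b2 := conv (b := -4 * (-u 0 + u 1 + u 2)) (key v1_mem v4_mem v3_mem v1_mem)
    (by simp [det3]; ring)
  have b3 := conv (b := -4 * (u 0 - u 1 + u 2)) (key v1_mem v2_mem v4_mem v1_mem)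
    (by simp [det3]; ring)
  have b4 := conv (b := -4 * (u 0 + u 1 - u 2)) (key v1_mem v3_mem v2_mem v1_mem)
    (by simp [det3]; ring)
  have c0 : |u 0| ≤ V / 4 := abs_le.2 ⟨by linarith, by linarith⟩
  have c1 : |u 1| ≤ V / 4 := abs_le.2 ⟨by linarith, by linarith⟩
  have c2 : |u 2| ≤ V / 4 := abs_le.2 ⟨by linarith, by linarith⟩
  have c3 : |u 0| + |u 1| + |u 2| ≤ V / 2 := by
    cases abs_cases (u 0) <;> cases abs_cases (u 1) <;> cases abs_cases (u 2) <;> linarith
  have h1 := normsq3 hu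
  rw [← sq_abs (u 0), ← sq_abs (u 1), ← sq_abs (u 2)] at h1
  have hV : 0 ≤ V := ENNReal.toReal_nonneg
  have h8 : 8 ≤ V ^ 2 := by
    nlinarith [abs_nonneg (u 0), abs_nonneg (u 1), abs_nonneg (u 2)]
  apply le_of_sq_le_sq _ hV
  rw [mul_pow, Real.sq_sqrt (by norm_num)]
  linarith

theorem le_minProjArea : ENNReal.ofReal (2 * √2) ≤ minProjArea tetrahedron :=
  le_iInf₂ fun _ hu => le_projArea hu

theorem minProjArea_le {u : E3} (hu : ‖u‖ = 1) :
    minProjArea tetrahedron ≤ projArea tetrahedron u :=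
  iInf₂_le u hu

theorem minProjArea_lt_top : minProjArea tetrahedron < ⊤ :=
  (minProjArea_le (u := EuclideanSpace.single 0 1) (by simp)).trans_lt (projArea_lt_top _)

/-- Directions of the cylinders. -/
noncomputable def dirv : Bool → ℝ → E3
  | false, m => !₂[m / 3, 1 + al m, al m - 1]
  | true, m => !₂[-(m / 3), al m - 1, -(1 + al m)]

/-- Apex of the base triangle. -/
noncomputable def apex : Bool → E3
  | false => !₂[-1, 0, 0]
  | true => !₂[1, 0, 0]

/-- Edges of the base triangle. -/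
noncomputable def edge : Bool → ℝ → ℝ → E3
  | false, t, τ => !₂[2 * t, t * τ, t * τ]
  | true, t, τ => !₂[-(2 * t), t * τ, -(t * τ)]

theorem norm_dirv (b : Bool) (m : ℝ) :
    ‖dirv b m‖ = √2 * √(1 + (al m ^ 2 + 2 * (m / 6) ^ 2)) := by
  rw [← Real.sqrt_mul (by norm_num), EuclideanSpace.norm_eq]
  congr 1
  cases b <;> simp [dirv, Fin.sum_univ_three] <;> ring

theorem norm_dirv_pos (b : Bool) (m : ℝ) : 0 < ‖dirv b m‖ := by
  rw [norm_dirv]
  positivity

/-- Unit directions. -/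
noncomputable def unitv (b : Bool) (m : ℝ) : E3 := ‖dirv b m‖⁻¹ • dirv b m

theorem norm_unitv (b : Bool) (m : ℝ) : ‖unitv b m‖ = 1 := by
  rw [unitv, norm_smul, norm_inv, norm_norm, inv_mul_cancel₀ (norm_dirv_pos b m).ne']

/-- Bases. -/
noncomputable def base (b : Bool) (m : ℝ) : Set (ℝ ∙ unitv b m)ᗮ :=
  (ℝ ∙ unitv b m)ᗮ.orthogonalProjectionOnto ''
    tri (apex b) (edge b (tt m) (m - eta)) (edge b (tt m) (m + eta))

theorem isCompact_base (b : Bool) (m : ℝ) : IsCompact (base b m) :=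
  (isCompact_tri _ _ _).image (ℝ ∙ unitv b m)ᗮ.orthogonalProjectionOnto.continuous

theorem volume_base (b : Bool) (m : ℝ) : volume (base b m) = ENNReal.ofReal
    (√2 * (2 * eta * (tt m ^ 2 / √(1 + (al m ^ 2 + 2 * (m / 6) ^ 2))))) := by
  rw [base, area_tri (norm_unitv b m)]
  congr 1
  have h1 : det3 (edge b (tt m) (m - eta)) (edge b (tt m) (m + eta)) (unitv b m)
      = ‖dirv b m‖⁻¹ * det3 (edge b (tt m) (m - eta)) (edge b (tt m) (m + eta)) (dirv b m) := by
    simp only [det3, unitv, PiLp.smul_apply, smul_eq_mul]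
    ring
  have he := eta_pos
  have h2 : |det3 (edge b (tt m) (m - eta)) (edge b (tt m) (m + eta)) (dirv b m)|
      = 8 * eta * tt m ^ 2 := by
    rw [abs_eq (by positivity)]
    cases b
    · right; simp [det3, edge, dirv]; ring
    · left; simp [det3, edge, dirv]; ring
  rw [h1, abs_mul, h2, abs_of_pos (inv_pos.2 (norm_dirv_pos b m)), norm_dirv]
  have h3 : (0 : ℝ) < √2 := by positivity
  have h4 : 0 < √(1 + (al m ^ 2 + 2 * (m / 6) ^ 2)) := by positivity
  have h5 : √2 ^ 2 = 2 := Real.sq_sqrt (by norm_num)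
  field_simp
  rw [h5]
  ring

theorem mem_tri_of_wedge {m x y z : ℝ} (hW : Wedge m x y z) (ht : z - m / 6 * x ≤ tt m) :
    ∃ q ∈ triC, q 0 * tt m + q 1 * tt m = z - m / 6 * x ∧
      q 0 * (tt m * (m - eta)) + q 1 * (tt m * (m + eta)) = y - al m * x := by
  have he := eta_pos
  have ht0 : 0 < tt m := by linarith [tt_ge m]
  obtain ⟨h1, h2⟩ := hW
  refine ⟨!₂[((m + eta) * (z - m / 6 * x) - (y - al m * x)) / (2 * eta * tt m),
    ((y - al m * x) - (m - eta) * (z - m / 6 * x)) / (2 * eta * tt m)], ⟨?_, ?_, ?_⟩, ?_, ?_⟩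
  · simp only [Matrix.cons_val_zero]
    exact div_nonneg (by linarith) (by positivity)
  · simp only [Matrix.cons_val_one, Matrix.cons_val_zero]
    exact div_nonneg (by linarith) (by positivity)
  · simp only [Matrix.cons_val_one, Matrix.cons_val_zero]
    rw [← add_div, div_le_one (by positivity)]
    nlinarith
  · simp only [Matrix.cons_val_one, Matrix.cons_val_zero]
    field_simp
    ring
  · simp only [Matrix.cons_val_one, Matrix.cons_val_zero]
    field_simp
    ring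

theorem mem_cyl_of {b : Bool} {m : ℝ} {p : E3} (q : E2) (hq : q ∈ triC) (s : ℝ)
    (h : p = apex b + lin (edge b (tt m) (m - eta)) (edge b (tt m) (m + eta)) q + s • dirv b m) :
    p ∈ cylinder (unitv b m) (base b m) := by
  refine mem_cylinder (norm_unitv b m) ⟨q, hq, rfl⟩ (s * ‖dirv b m‖) ?_
  rw [h, unitv, smul_smul, mul_assoc, mul_inv_cancel₀ (norm_dirv_pos b m).ne', mul_one]

theorem covered {p : E3} (hp : p ∈ tetrahedron) :
    ∃ b : Bool, ∃ i < 100000, p ∈ cylinder (unitv b (mid i)) (base b (mid i)) := by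
  obtain ⟨h1, h2⟩ := tet_ineq hp
  rcases cover_real _ _ _ h1 h2 with ⟨i, hi, hW, ht⟩ | ⟨i, hi, hW, ht⟩
  · obtain ⟨q, hq, e1, e2⟩ := mem_tri_of_wedge hW ht
    refine ⟨false, i, hi, mem_cyl_of q hq ((p 1 - p 2) / 2) ?_⟩
    ext j
    fin_cases j <;> simp [apex, edge, dirv, lin_apply] <;> linarith
  · obtain ⟨q, hq, e1, e2⟩ := mem_tri_of_wedge hW ht
    refine ⟨true, i, hi, mem_cyl_of q hq (-((p 1 + p 2) / 2)) ?_⟩
    ext j
    fin_cases j <;> simp [apex, edge, dirv, lin_apply] <;> linarith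

theorem total_le : ∑ k : Bool × Fin 100000, volume (base k.1 (mid k.2))
    ≤ ENNReal.ofReal (1 / 2 - 1 / 5000) * ENNReal.ofReal (2 * √2) := by
  have he := eta_pos
  have h1 : ∀ b : Bool, ∑ i : Fin 100000, volume (base b (mid i))
      ≤ ENNReal.ofReal (√2 * (1 / 2 - 1 / 5000)) := by
    intro b
    simp only [volume_base]
    rw [← ENNReal.ofReal_sum_of_nonneg (fun i _ => by positivity), ← Finset.mul_sum]
    apply ENNReal.ofReal_le_ofReal
    gcongr
    rw [Fin.sum_univ_eq_sum_range (fun i : ℕ =>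
      2 * eta * (tt (mid i) ^ 2 / √(1 + (al (mid i) ^ 2 + 2 * (mid i / 6) ^ 2)))) 100000]
    exact sum_bound
  rw [Fintype.sum_prod_type, Fintype.sum_bool]
  refine (add_le_add (h1 true) (h1 false)).trans (le_of_eq ?_)
  rw [← ENNReal.ofReal_add (by positivity) (by positivity), ← ENNReal.ofReal_mul (by norm_num)]
  congr 1
  ring

theorem main :
    (IsCompact tetrahedron ∧ Convex ℝ tetrahedron ∧ (interior tetrahedron).Nonempty) ∧
    (0 < minProjArea tetrahedron ∧ minProjArea tetrahedron < ⊤) ∧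
    ∃ (m : ℕ) (u : Fin m → E3) (B : (i : Fin m) → Set (ℝ ∙ u i)ᗮ),
      (∀ i, ‖u i‖ = 1) ∧ (∀ i, MeasurableSet (B i)) ∧ (∀ i, volume (B i) < ⊤) ∧
      tetrahedron ⊆ ⋃ i, cylinder (u i) (B i) ∧
      ∑ i, volume (B i) ≤ ENNReal.ofReal (1 / 2 - 1 / 5000) * minProjArea tetrahedron ∧
      ∑ i, volume (B i) < minProjArea tetrahedron / 2 ∧
      ∑ i, volume (B i) / projArea tetrahedron (u i) < 1 / 2 := by
  have hpos : 0 < minProjArea tetrahedron :=
    lt_of_lt_of_le (ENNReal.ofReal_pos.2 (by positivity)) le_minProjArea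
  refine ⟨⟨isCompact_tet, convex_tet, interior_tet⟩, ⟨hpos, minProjArea_lt_top⟩, ?_⟩
  let e := (Fintype.equivFin (Bool × Fin 100000)).symm
  have hsum : ∑ i, volume (base (e i).1 (mid (e i).2))
      ≤ ENNReal.ofReal (1 / 2 - 1 / 5000) * minProjArea tetrahedron := by
    rw [Equiv.sum_comp e (fun k => volume (base k.1 (mid k.2)))]
    refine total_le.trans ?_
    gcongr
    exact le_minProjArea
  have hhalf : ENNReal.ofReal (1 / 2 - 1 / 5000) < 1 / 2 := by
    have : (1 / 2 : ℝ≥0∞) = ENNReal.ofReal (1 / 2) := by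
      rw [ENNReal.ofReal_div_of_pos (by norm_num)]; simp
    rw [this, ENNReal.ofReal_lt_ofReal_iff (by norm_num)]
    norm_num
  refine ⟨_, fun i => unitv (e i).1 (mid (e i).2), fun i => base (e i).1 (mid (e i).2),
    fun i => norm_unitv _ _, fun i => (isCompact_base _ _).measurableSet,
    fun i => (isCompact_base _ _).measure_lt_top, fun p hp => ?_, hsum, ?_, ?_⟩
  · obtain ⟨b, i, hi, h⟩ := covered hp
    refine Set.mem_iUnion.2 ⟨e.symm (b, ⟨i, hi⟩), ?_⟩
    have key : ∀ k : Bool × Fin 100000, k = (b, ⟨i, hi⟩) →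
        p ∈ cylinder (unitv k.1 (mid k.2)) (base k.1 (mid k.2)) := by
      rintro _ rfl
      exact h
    exact key _ (Equiv.apply_symm_apply _ _)
  · refine hsum.trans_lt ?_
    rw [div_eq_mul_inv (minProjArea tetrahedron), mul_comm (minProjArea tetrahedron), ← one_div]
    exact ENNReal.mul_lt_mul_left hpos.ne' minProjArea_lt_top.ne hhalf
  · refine lt_of_le_of_lt ?_ hhalf
    calc ∑ i, volume (base (e i).1 (mid (e i).2)) / projArea tetrahedron (unitv (e i).1 (mid (e i).2))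
        ≤ ∑ i, volume (base (e i).1 (mid (e i).2)) / minProjArea tetrahedron := by
          gcongr with i
          exact minProjArea_le (norm_unitv _ _)
      _ = (∑ i, volume (base (e i).1 (mid (e i).2))) / minProjArea tetrahedron := by
          simp only [div_eq_mul_inv, Finset.sum_mul]
      _ ≤ ENNReal.ofReal (1 / 2 - 1 / 5000) :=
          ENNReal.div_le_of_le_mul hsum

end Vale.Agent.P243
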