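import Mathlib

/-!
Definitions used in the statement for problem P243 (the half-area cylinder covering question).
They are written for a finite-dimensional Euclidean space `V` and used with `V = ℝ³`.
-/

namespace Vale.Agent.P243.Statement

open MeasureTheory
open scoped ENNReal

section

variable {V : Type} [NormedAddCommGroup V] [InnerProductSpace ℝ V]

/-- The hyperplane through the origin orthogonal to `u`. -/
noncomputable def plane (u : V) : Submodule ℝ V := Submodule.orthogonal (Submodule.span ℝ {u})

/-- The cylinder `B + ℝ u` with base `B` inside the hyperplane orthogonal to `u`. -/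
def cylinder (u : V) (B : Set (plane u)) : Set V :=
  {p | ∃ b ∈ B, ∃ s : ℝ, p = (b : V) + s • u}

variable [FiniteDimensional ℝ V] [MeasurableSpace V] [BorelSpace V]

/-- The Lebesgue measure of a subset of the Euclidean hyperplane orthogonal to `u`. -/
noncomputable def area (u : V) (B : Set (plane u)) : ℝ≥0∞ := volume B

/-- `B` is a measurable subset of the hyperplane orthogonal to `u`, of finite area. -/
def IsBase (u : V) (B : Set (plane u)) : Prop := MeasurableSet B ∧ area u B < ⊤

/-- The area of the orthogonal projection of `K` onto the hyperplane orthogonal to `u`. -/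
noncomputable def projArea (K : Set V) (u : V) : ℝ≥0∞ :=
  area u ((plane u).orthogonalProjectionOnto '' K)

/-- The smallest area of an orthogonal projection of `K` onto a hyperplane. -/
noncomputable def minProjArea (K : Set V) : ℝ≥0∞ :=
  ⨅ (u : V) (_ : ‖u‖ = 1), projArea K u

end

/-- A regular tetrahedron (all six edges have length `2 √2`). -/
def tetrahedron : Set (EuclideanSpace ℝ (Fin 3)) :=
  convexHull ℝ {WithLp.toLp 2 ![1, 1, 1], WithLp.toLp 2 ![1, -1, -1],
    WithLp.toLp 2 ![-1, 1, -1], WithLp.toLp 2 ![-1, -1, 1]}

end Vale.Agent.P243.Statement
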